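import Mathlib

/-!
# Oddness of surjective isometries of unit spheres, with no assumption on the spaces

Let `f : S_X → S_Y` be a surjective isometry of the unit spheres of real normed spaces and
`σ x = f⁻¹ (- f (- x))`.  Then `σ` is an isometric bijection of `S_X` and `‖x + σ x‖ = 2`.

Step 1.  If `τ` is an isometry of `S_X` such that `z` and `τ z` always have a common norming
functional, then `‖x + t (x - τ x)‖ ≤ 1 + 4 t² ‖x - τ x‖` and every functional norming `x` norms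
`τ x`.  So the same hypothesis holds for all powers of `σ`.

Step 2.  Let `D` be the supremum of all displacements `‖σⁿ q - q‖`.  If `τ = σⁿ`, `δ = ‖τ p - p‖ > 0`
then the point `z = u / ‖u‖`, `u = p + (p - τ p) / 32`, has displacement at least `1.02 δ - 0.02 D`
up to a small multiple of `δ`; this gives `D ≥ 1.02 δ`.  So `D ≥ 1.02 D` and `D = 0`.
-/

namespace Vale.Agent.Lib.P084.Gen

open Metric

variable {X : Type*} [NormedAddCommGroup X] [NormedSpace ℝ X]

/-- The unit sphere, as a type. -/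
abbrev Sph (X : Type*) [NormedAddCommGroup X] [NormedSpace ℝ X] := sphere (0 : X) 1

lemma Sph.norm_eq (x : Sph X) : ‖(x : X)‖ = 1 := by
  simp

/-- `τ` preserves distances on the sphere. -/
def IsoOn (τ : Sph X → Sph X) : Prop :=
  ∀ a b : Sph X, ‖(τ a : X) - (τ b : X)‖ = ‖(a : X) - (b : X)‖

/-- `z` and `τ z` have a common norming functional. -/
def Cof (τ : Sph X → Sph X) : Prop :=
  ∀ z : Sph X, ∃ φ : X →L[ℝ] ℝ, ‖φ‖ ≤ 1 ∧ φ (z : X) = 1 ∧ φ (τ z : X) = 1

lemma apply_le_of_norm_le {φ : X →L[ℝ] ℝ} (hφ : ‖φ‖ ≤ 1) (v : X) : φ v ≤ ‖v‖ := by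
  have h1 : |φ v| ≤ ‖φ‖ * ‖v‖ := by simpa using φ.le_opNorm v
  have h2 : ‖φ‖ * ‖v‖ ≤ 1 * ‖v‖ := mul_le_mul_of_nonneg_right hφ (norm_nonneg v)
  have h3 := le_abs_self (φ v)
  linarith

/-- Second order bound on the chord `x + t (x - τ x)`. -/
lemma norm_add_le {τ : Sph X → Sph X} (hi : IsoOn τ) (hc : Cof τ) (x : Sph X) {t : ℝ} (ht : 0 ≤ t) :
    ‖(x : X) + t • ((x : X) - (τ x : X))‖ ≤ 1 + 4 * t ^ 2 * ‖(x : X) - (τ x : X)‖ := by
  set v : X := (x : X) - (τ x : X) with hv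
  set u : X := (x : X) + t • v with hu
  have hv0 : 0 ≤ ‖v‖ := norm_nonneg v
  by_cases hu0 : u = 0
  · rw [hu0, norm_zero]
    positivity
  have hun : ‖u‖ ≠ 0 := norm_ne_zero_iff.mpr hu0
  have hupos : 0 < ‖u‖ := norm_pos_iff.mpr hu0
  have hzm : (‖u‖⁻¹ • u) ∈ sphere (0 : X) 1 := by
    rw [mem_sphere_zero_iff_norm, norm_smul, norm_inv, norm_norm, inv_mul_cancel₀ hun]
  set z : Sph X := ⟨‖u‖⁻¹ • u, hzm⟩ with hz
  have hzc : (z : X) = ‖u‖⁻¹ • u := rfl
  obtain ⟨φ, hφ, hφz, hφτ⟩ := hc z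
  have hφu : φ u = ‖u‖ := by
    have h := hφz
    rw [hzc, map_smul, smul_eq_mul] at h
    field_simp at h
    linarith
  have hx1 : ‖(x : X)‖ = 1 := Sph.norm_eq x
  have hφx : φ (x : X) ≤ 1 := by
    have := apply_le_of_norm_le hφ (x : X)
    rwa [hx1] at this
  -- distance from `x` to `z`
  have hxu : ‖(x : X) - u‖ = t * ‖v‖ := by
    have : (x : X) - u = -(t • v) := by rw [hu]; abel
    rw [this, norm_neg, norm_smul, Real.norm_eq_abs, abs_of_nonneg ht]
  have huz : ‖u - (z : X)‖ = |‖u‖ - 1| := by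
    have : u - (z : X) = (1 - ‖u‖⁻¹) • u := by rw [hzc, sub_smul, one_smul]
    rw [this, norm_smul, Real.norm_eq_abs]
    have h2 : (1 - ‖u‖⁻¹) * ‖u‖ = ‖u‖ - 1 := by field_simp
    calc |1 - ‖u‖⁻¹| * ‖u‖ = |1 - ‖u‖⁻¹| * |‖u‖| := by rw [abs_of_pos hupos]
      _ = |(1 - ‖u‖⁻¹) * ‖u‖| := (abs_mul _ _).symm
      _ = |‖u‖ - 1| := by rw [h2]
  have hu1 : |‖u‖ - 1| ≤ t * ‖v‖ := by
    have h := abs_norm_sub_norm_le u (x : X)
    rw [hx1] at h
    have h3 : ‖u - (x : X)‖ = t * ‖v‖ := by rw [norm_sub_rev, hxu]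
    rwa [h3] at h
  have hxz : ‖(x : X) - (z : X)‖ ≤ 2 * (t * ‖v‖) := by
    have := norm_sub_le_norm_sub_add_norm_sub (x : X) u (z : X)
    rw [hxu, huz] at this
    linarith
  -- the functional on `v`
  have hφv : φ v ≤ 2 * ‖(x : X) - (z : X)‖ := by
    have e1 : φ v = φ ((x : X) - (z : X)) + (φ (z : X) - φ (τ z : X)) +
        φ ((τ z : X) - (τ x : X)) := by
      simp only [hv, map_sub]; ring
    have e2 := apply_le_of_norm_le hφ ((x : X) - (z : X))
    have e3 := apply_le_of_norm_le hφ ((τ z : X) - (τ x : X))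
    rw [hi z x, norm_sub_rev] at e3
    rw [e1, hφz, hφτ]
    linarith
  have hfin : ‖u‖ = φ (x : X) + t * φ v := by
    rw [← hφu, hu, map_add, map_smul, smul_eq_mul]
  rw [hfin]
  have h4 : t * φ v ≤ t * (2 * (2 * (t * ‖v‖))) := by
    apply mul_le_mul_of_nonneg_left _ ht
    linarith
  nlinarith

/-- Every functional norming `x` norms `τ x`. -/
lemma apply_eq_one {τ : Sph X → Sph X} (hi : IsoOn τ) (hc : Cof τ) (x : Sph X)
    {φ : X →L[ℝ] ℝ} (hφ : ‖φ‖ ≤ 1) (hx : φ (x : X) = 1) : φ (τ x : X) = 1 := by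
  set v : X := (x : X) - (τ x : X) with hv
  have hle : φ (τ x : X) ≤ 1 := by
    have := apply_le_of_norm_le hφ (τ x : X)
    rwa [Sph.norm_eq] at this
  have hv0 : φ v ≤ 0 := by
    by_contra hcon
    push Not at hcon
    have hvn : 0 ≤ ‖v‖ := norm_nonneg v
    set t : ℝ := φ v / (8 * ‖v‖ + 1) with ht
    have hdpos : 0 < 8 * ‖v‖ + 1 := by positivity
    have htpos : 0 < t := div_pos hcon hdpos
    have h1 := norm_add_le hi hc x htpos.le
    have h2 := apply_le_of_norm_le hφ ((x : X) + t • v)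
    rw [map_add, map_smul, smul_eq_mul, hx] at h2
    have h3 : 1 + t * φ v ≤ 1 + 4 * t ^ 2 * ‖v‖ := le_trans h2 h1
    have h4 : φ v ≤ 4 * t * ‖v‖ := by
      have : t * φ v ≤ t * (4 * t * ‖v‖) := by nlinarith
      exact le_of_mul_le_mul_left this htpos
    have h5 : φ v = t * (8 * ‖v‖ + 1) := by
      rw [ht]; field_simp
    nlinarith
  have : φ v = 1 - φ (τ x : X) := by rw [hv, map_sub, hx]
  linarith

lemma Cof.comp {τ τ' : Sph X → Sph X} (hi : IsoOn τ) (hc : Cof τ) (hc' : Cof τ') :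
    Cof (τ ∘ τ') := by
  intro z
  obtain ⟨φ, hφ, h1, h2⟩ := hc' z
  exact ⟨φ, hφ, h1, apply_eq_one hi hc (τ' z) hφ h2⟩

lemma Cof.id : Cof (id : Sph X → Sph X) := by
  intro z
  have hz : (z : X) ≠ 0 := by
    intro h
    have := Sph.norm_eq z
    rw [h, norm_zero] at this
    exact zero_ne_one this
  obtain ⟨g, hg, hgz⟩ := exists_dual_vector ℝ (z : X) (norm_ne_zero_iff.mpr hz)
  refine ⟨g, hg.le, ?_, ?_⟩
  · simpa [Sph.norm_eq z] using hgz
  · simpa [Sph.norm_eq z] using hgz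

lemma IsoOn.comp {τ τ' : Sph X → Sph X} (hi : IsoOn τ) (hi' : IsoOn τ') : IsoOn (τ ∘ τ') :=
  fun a b => by simp only [Function.comp_apply]; rw [hi, hi']

/-- The displacement estimate. -/
lemma key {τ ι : Sph X → Sph X} (hi : IsoOn τ) (hc : Cof τ) (hr : ∀ a, τ (ι a) = a)
    {D : ℝ} (hD1 : ∀ q : Sph X, ‖(τ q : X) - (q : X)‖ ≤ D)
    (hD2 : ∀ q : Sph X, ‖(τ (τ q) : X) - (q : X)‖ ≤ D) (p : Sph X) :
    (102 / 100) * ‖(τ p : X) - (p : X)‖ ≤ D := by
  set δ : ℝ := ‖(τ p : X) - (p : X)‖ with hδ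
  have hδ0 : 0 ≤ δ := norm_nonneg _
  have hDδ : δ ≤ D := hD1 p
  by_cases hδpos : δ = 0
  · rw [hδpos]; linarith
  have hδpos' : 0 < δ := lt_of_le_of_ne hδ0 (Ne.symm hδpos)
  set v : X := (p : X) - (τ p : X) with hv
  have hvδ : ‖v‖ = δ := by rw [hv, norm_sub_rev]
  set u : X := (p : X) + (1 / 32 : ℝ) • v with hu
  have hub : ‖u‖ ≤ 1 + δ / 256 := by
    have h := norm_add_le hi hc p (t := 1 / 32) (by norm_num)
    rw [← hv, hvδ] at h
    have e : (4 : ℝ) * (1 / 32) ^ 2 * δ = δ / 256 := by ring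
    rw [e] at h
    exact h
  have hpn : ‖(p : X)‖ = 1 := Sph.norm_eq p
  have hp0 : (p : X) ≠ 0 := by
    intro h; rw [h, norm_zero] at hpn; exact zero_ne_one hpn
  obtain ⟨g, hg, hgp⟩ := exists_dual_vector ℝ (p : X) (norm_ne_zero_iff.mpr hp0)
  have hgp1 : g (p : X) = 1 := by simpa [hpn] using hgp
  have hgτ : g (τ p : X) = 1 := apply_eq_one hi hc p hg.le hgp1
  have hu1 : 1 ≤ ‖u‖ := by
    have hgu : g u = 1 := by
      rw [hu, map_add, map_smul, smul_eq_mul, hv, map_sub, hgp1, hgτ]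
      norm_num
    have h := apply_le_of_norm_le hg.le u
    rwa [hgu] at h
  have hupos : 0 < ‖u‖ := by linarith
  have hun : ‖u‖ ≠ 0 := hupos.ne'
  have hzm : (‖u‖⁻¹ • u) ∈ sphere (0 : X) 1 := by
    rw [mem_sphere_zero_iff_norm, norm_smul, norm_inv, norm_norm, inv_mul_cancel₀ hun]
  set z : Sph X := ⟨‖u‖⁻¹ • u, hzm⟩ with hz
  have hzc : (z : X) = ‖u‖⁻¹ • u := rfl
  have hue : ‖u - (z : X)‖ ≤ δ / 256 := by
    have e1 : u - (z : X) = (1 - ‖u‖⁻¹) • u := by rw [hzc, sub_smul, one_smul]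
    have e2 : ‖u - (z : X)‖ = ‖u‖ - 1 := by
      rw [e1, norm_smul, Real.norm_eq_abs]
      have h1 : 0 ≤ 1 - ‖u‖⁻¹ := by
        have : ‖u‖⁻¹ ≤ 1 := inv_le_one_of_one_le₀ hu1
        linarith
      rw [abs_of_nonneg h1]
      field_simp
    rw [e2]
    linarith
  have hup : ‖u - (p : X)‖ = δ / 32 := by
    have : u - (p : X) = (1 / 32 : ℝ) • v := by rw [hu]; abel
    rw [this, norm_smul, Real.norm_eq_abs, abs_of_nonneg (by norm_num), hvδ]
    ring
  have huτ : ‖u - (τ p : X)‖ = 33 / 32 * δ := by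
    have : u - (τ p : X) = (33 / 32 : ℝ) • v := by
      rw [hu, hv]
      have e : (33 / 32 : ℝ) = 1 + 1 / 32 := by norm_num
      rw [e, add_smul, one_smul]; abel
    rw [this, norm_smul, Real.norm_eq_abs, abs_of_nonneg (by norm_num), hvδ]
  have hzp : ‖(z : X) - (p : X)‖ ≤ δ / 32 + δ / 256 := by
    have h := norm_sub_le_norm_sub_add_norm_sub (z : X) u (p : X)
    rw [hup, norm_sub_rev (z : X) u] at h
    linarith
  have hzτ : 33 / 32 * δ - δ / 256 ≤ ‖(z : X) - (τ p : X)‖ := by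
    have h := norm_sub_le_norm_sub_add_norm_sub u (z : X) (τ p : X)
    rw [huτ] at h
    linarith
  set w : Sph X := ι z with hw
  set r : Sph X := ι p with hr'
  have hτw : τ w = z := hr z
  have hτr : τ r = p := hr p
  have hwr : ‖(w : X) - (r : X)‖ = ‖(z : X) - (p : X)‖ := by
    rw [← hi w r, hτw, hτr]
  have hwp : ‖(w : X) - (p : X)‖ = ‖(z : X) - (τ p : X)‖ := by
    rw [← hi w p, hτw]
  have hpw : 33 / 32 * δ - δ / 256 ≤ ‖(p : X) - (w : X)‖ := by
    rw [norm_sub_rev, hwp]; exact hzτ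
  have hpw0 : (p : X) - (w : X) ≠ 0 := by
    intro h
    rw [h, norm_zero] at hpw
    linarith
  obtain ⟨χ, hχ, hχv⟩ := exists_dual_vector ℝ ((p : X) - (w : X)) (norm_ne_zero_iff.mpr hpw0)
  have hχv' : χ ((p : X) - (w : X)) = ‖(p : X) - (w : X)‖ := by simpa using hχv
  have hχle : ‖χ‖ ≤ 1 := hχ.le
  have h1 : δ - 2 * (δ / 256) ≤ χ ((p : X) - (r : X)) := by
    have e : χ ((p : X) - (r : X)) = χ ((p : X) - (w : X)) - χ ((r : X) - (w : X)) := by
      simp only [map_sub]; ring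
    have h2 : χ ((r : X) - (w : X)) ≤ ‖(r : X) - (w : X)‖ := apply_le_of_norm_le hχle _
    rw [norm_sub_rev, hwr] at h2
    rw [e, hχv']
    linarith
  have h3 : χ ((τ p : X) - (p : X)) ≤ D - δ + 2 * (δ / 256) := by
    have e : χ ((τ p : X) - (p : X)) = χ ((τ p : X) - (r : X)) - χ ((p : X) - (r : X)) := by
      simp only [map_sub]; ring
    have h4 : χ ((τ p : X) - (r : X)) ≤ ‖(τ p : X) - (r : X)‖ := apply_le_of_norm_le hχle _
    have h5 : ‖(τ p : X) - (r : X)‖ ≤ D := by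
      have := hD2 r
      rwa [hτr] at this
    rw [e]
    linarith
  have h6 : ‖(z : X) - (w : X)‖ ≤ D := by
    have h7 := hD1 z
    have h8 : ‖(τ z : X) - (z : X)‖ = ‖(z : X) - (w : X)‖ := by
      have := hi z w
      rw [hτw] at this
      exact this
    rwa [h8] at h7
  have h9 : χ ((z : X) - (w : X)) ≤ D := le_trans (apply_le_of_norm_le hχle _) h6
  have h10 : χ ((z : X) - (w : X)) =
      χ ((z : X) - u) + (1 / 32) * χ v + χ ((p : X) - (w : X)) := by
    have e : (z : X) - (w : X) = ((z : X) - u) + (1 / 32 : ℝ) • v + ((p : X) - (w : X)) := by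
      rw [hu]; abel
    rw [e, map_add, map_add, map_smul, smul_eq_mul]
  have h11 : -(δ / 256) ≤ χ ((z : X) - u) := by
    have h12 : χ (u - (z : X)) ≤ ‖u - (z : X)‖ := apply_le_of_norm_le hχle _
    have e : χ ((z : X) - u) = - χ (u - (z : X)) := by simp [map_sub]
    rw [e]
    linarith
  have h13 : χ v = - χ ((τ p : X) - (p : X)) := by
    rw [hv]; simp [map_sub]
  rw [h10, h13, hχv'] at h9
  linarith


/-- A bijective self map of the sphere preserving distances and with `z`, `τ z` cofacial for all `z`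
is the identity. -/
theorem eq_id_of_cof (σ : Equiv.Perm (Sph X)) (hi : IsoOn (σ : Sph X → Sph X))
    (hc : Cof (σ : Sph X → Sph X)) (q : Sph X) : σ q = q := by
  have hiP : ∀ n : ℕ, IsoOn ((σ ^ n : Equiv.Perm (Sph X)) : Sph X → Sph X) := by
    intro n
    induction n with
    | zero => intro a b; simp
    | succ n ih =>
      have : ((σ ^ (n + 1) : Equiv.Perm (Sph X)) : Sph X → Sph X) =
          (σ : Sph X → Sph X) ∘ ((σ ^ n : Equiv.Perm (Sph X)) : Sph X → Sph X) := by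
        rw [pow_succ']; rfl
      rw [this]
      exact hi.comp ih
  have hcP : ∀ n : ℕ, Cof ((σ ^ n : Equiv.Perm (Sph X)) : Sph X → Sph X) := by
    intro n
    induction n with
    | zero =>
      have : ((σ ^ 0 : Equiv.Perm (Sph X)) : Sph X → Sph X) = id := by simp
      rw [this]
      exact Cof.id
    | succ n ih =>
      have : ((σ ^ (n + 1) : Equiv.Perm (Sph X)) : Sph X → Sph X) =
          (σ : Sph X → Sph X) ∘ ((σ ^ n : Equiv.Perm (Sph X)) : Sph X → Sph X) := by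
        rw [pow_succ']; rfl
      rw [this]
      exact Cof.comp hi hc ih
  set A : Set ℝ := {d | ∃ (n : ℕ) (y : Sph X),
    d = ‖(((σ ^ n : Equiv.Perm (Sph X)) y : Sph X) : X) - (y : X)‖} with hA
  have hAb : BddAbove A := by
    refine ⟨2, ?_⟩
    rintro d ⟨n, y, rfl⟩
    calc _ ≤ ‖(((σ ^ n : Equiv.Perm (Sph X)) y : Sph X) : X)‖ + ‖(y : X)‖ := norm_sub_le _ _
      _ = 2 := by rw [Sph.norm_eq, Sph.norm_eq]; norm_num
  have hAn : A.Nonempty := ⟨_, 0, q, rfl⟩
  set D : ℝ := sSup A with hD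
  have hle : ∀ (n : ℕ) (y : Sph X),
      ‖(((σ ^ n : Equiv.Perm (Sph X)) y : Sph X) : X) - (y : X)‖ ≤ D :=
    fun n y => le_csSup hAb ⟨n, y, rfl⟩
  have hstep : ∀ d ∈ A, (102 / 100) * d ≤ D := by
    rintro d ⟨n, y, rfl⟩
    have h2 : ∀ z : Sph X, ‖(((σ ^ n : Equiv.Perm (Sph X)) ((σ ^ n : Equiv.Perm (Sph X)) z) :
        Sph X) : X) - (z : X)‖ ≤ D := by
      intro z
      have := hle (n + n) z
      rw [pow_add] at this
      exact this
    exact key (ι := ((σ ^ n : Equiv.Perm (Sph X))⁻¹ : Equiv.Perm (Sph X))) (hiP n) (hcP n)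
      (fun a => by simp) (hle n) h2 y
  have hDD : (102 / 100) * D ≤ D := by
    have : D ≤ D * (100 / 102) := by
      apply csSup_le hAn
      intro d hd
      have := hstep d hd
      linarith
    linarith
  have hD0 : 0 ≤ D := by
    have := hle 0 q
    refine le_trans (norm_nonneg _) this
  have hDz : D = 0 := by linarith
  have h1 := hle 1 q
  rw [hDz, pow_one] at h1
  have h2 : ‖(σ q : X) - (q : X)‖ = 0 := le_antisymm h1 (norm_nonneg _)
  exact Subtype.ext (sub_eq_zero.mp (norm_eq_zero.mp h2))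

variable {Y : Type*} [NormedAddCommGroup Y] [NormedSpace ℝ Y]

/-- **Oddness.**  Every surjective isometry of the unit sphere of a real normed space onto the unit
sphere of a real normed space satisfies `f (-x) = - f x`. -/
theorem sphere_isometry_odd (f : sphere (0 : X) 1 → sphere (0 : Y) 1) (hf : Isometry f)
    (hs : Function.Surjective f) (x : sphere (0 : X) 1) :
    (f (-x) : Y) = -(f x : Y) := by
  set e : sphere (0 : X) 1 ≃ sphere (0 : Y) 1 := Equiv.ofBijective f ⟨hf.injective, hs⟩ with he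
  have hdist : ∀ a b : sphere (0 : X) 1, ‖(f a : Y) - (f b : Y)‖ = ‖(a : X) - (b : X)‖ := by
    intro a b
    have := hf.dist_eq a b
    simpa [Subtype.dist_eq, dist_eq_norm] using this
  have hef : ∀ a, e a = f a := fun a => rfl
  have hfs : ∀ b, f (e.symm b) = b := fun b => e.apply_symm_apply b
  -- the map `σ`
  set σ : Equiv.Perm (Sph X) :=
    (Equiv.neg (sphere (0 : X) 1)).trans (e.trans ((Equiv.neg (sphere (0 : Y) 1)).trans e.symm))
    with hσ
  have hσa : ∀ a : Sph X, f (σ a) = -(f (-a)) := by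
    intro a
    have : σ a = e.symm (-(e (-a))) := rfl
    rw [this, hfs]
    rfl
  have hiσ : IsoOn (σ : Sph X → Sph X) := by
    intro a b
    rw [← hdist, hσa, hσa]
    have h1 := hdist (-a) (-b)
    simp only [coe_neg_sphere] at h1 ⊢
    rw [show -(f (-a) : Y) - -(f (-b) : Y) = -((f (-a) : Y) - (f (-b) : Y)) by abel, norm_neg, h1]
    rw [show -(a : X) - -(b : X) = -((a : X) - (b : X)) by abel, norm_neg]
  have hcσ : Cof (σ : Sph X → Sph X) := by
    intro z
    have h2 : ‖(z : X) + (σ z : X)‖ = 2 := by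
      have h3 := hdist (σ z) (-z)
      rw [hσa] at h3
      simp only [coe_neg_sphere] at h3
      have e1 : -(f (-z) : Y) - (f (-z) : Y) = (-2 : ℝ) • (f (-z) : Y) := by
        rw [show (-2 : ℝ) = -1 + -1 by norm_num, add_smul]
        simp only [neg_smul, one_smul]; abel
      have e2 : ‖-(f (-z) : Y) - (f (-z) : Y)‖ = 2 := by
        rw [e1, norm_smul]
        have : ‖(f (-z) : Y)‖ = 1 := by simp
        rw [this]; norm_num
      rw [e2] at h3
      rw [add_comm, ← sub_neg_eq_add, ← h3]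
    have h0 : (z : X) + (σ z : X) ≠ 0 := by
      intro h; rw [h, norm_zero] at h2; norm_num at h2
    obtain ⟨φ, hφ, hφv⟩ := exists_dual_vector ℝ ((z : X) + (σ z : X)) (norm_ne_zero_iff.mpr h0)
    have hφv' : φ ((z : X) + (σ z : X)) = 2 := by rw [h2] at hφv; simpa using hφv
    have hle1 : φ (z : X) ≤ 1 := by
      have := apply_le_of_norm_le hφ.le (z : X)
      rwa [Sph.norm_eq] at this
    have hle2 : φ (σ z : X) ≤ 1 := by
      have := apply_le_of_norm_le hφ.le (σ z : X)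
      rwa [Sph.norm_eq] at this
    rw [map_add] at hφv'
    exact ⟨φ, hφ.le, by linarith, by linarith⟩
  have hid := eq_id_of_cof σ hiσ hcσ x
  have h5 := hσa x
  rw [hid] at h5
  rw [h5]
  simp

end Vale.Agent.Lib.P084.Gen
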